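import Mathlib
import Vale.Agent.P171.Official
import Vale.Agent.P171.Bridge

/-!
P171: a stable, tempered radial pair potential on `ℝ³` with a phase transition.
-/

namespace Vale.Agent.Results.P171.PhaseTransition

open MeasureTheory Vale.Agent.P171.Official

/-- **There is a stable, tempered radial pair potential on `ℝ³` with a phase transition.**

The potential `φ` is Borel measurable, locally bounded on `(0,∞)`, stable and tempered; at some
inverse temperature `β` its pressure `z ↦ Π(β,z)` exists for all `z > 0` and is not differentiable
at some activity `z₀ > 0`.  Moreover `φ` is bounded and absolutely integrable over `ℝ³`. -/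
theorem result :
    ∃ φ : ℝ → ℝ, Measurable φ ∧ LocallyBounded φ ∧ Stable φ ∧ Tempered φ ∧
      HasNonDifferentiablePressure φ ∧
      (∃ C : ℝ, ∀ r : ℝ, |φ r| ≤ C) ∧ Integrable (fun x : R3 => φ ‖x‖) :=
  main

end Vale.Agent.Results.P171.PhaseTransition
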